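import Mathlib

/-!
# Row R1: a smooth retraction of a neighbourhood onto the complex Stiefel base
-/

open Set Filter Topology
open scoped ContDiff

namespace Vale.Agent.P220.R2.H291

theorem exists_invsqrt' : ∃ g : ℝ → ℝ, ContDiff ℝ ∞ g ∧ ∀ t, 1 / 4 ≤ t → g t = (√t)⁻¹ := by
  set g : ℝ → ℝ := fun t => Real.smoothTransition (8 * t - 1) * (√t)⁻¹ with hg
  have hgs : ContDiff ℝ ∞ g := by
    rw [contDiff_iff_contDiffAt]
    intro t
    rcases lt_or_ge 0 t with ht | ht
    · have h1 : ContDiffAt ℝ ∞ (fun t : ℝ => √t) t := contDiffAt_id.sqrt ht.ne'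
      have h2 : ContDiff ℝ ∞ fun t : ℝ => Real.smoothTransition (8 * t - 1) :=
        Real.smoothTransition.contDiff.comp ((contDiff_const.mul contDiff_id).sub contDiff_const)
      exact h2.contDiffAt.mul (h1.inv (Real.sqrt_pos.2 ht).ne')
    · have h1 : g =ᶠ[𝓝 t] fun _ => 0 := by
        filter_upwards [Iio_mem_nhds (show t < 1 / 8 by linarith)] with x hx
        have : Real.smoothTransition (8 * x - 1) = 0 :=
          Real.smoothTransition.zero_of_nonpos (by rw [mem_Iio] at hx; linarith)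
        simp only [hg, this, zero_mul]
      exact contDiffAt_const.congr_of_eventuallyEq h1
  have hg1 : ∀ t, 1 / 4 ≤ t → g t = (√t)⁻¹ := by
    intro t ht
    have : Real.smoothTransition (8 * t - 1) = 1 :=
      Real.smoothTransition.one_of_one_le (by linarith)
    simp only [hg, this, one_mul]
  exact ⟨g, hgs, hg1⟩

section alg

variable {V : Type} [NormedAddCommGroup V] [InnerProductSpace ℝ V] {J : V ≃ₗᵢ[ℝ] V}

theorem inner_J_left (hJ : ∀ x, J (J x) = -x) (x y : V) :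
    (inner ℝ (J x) y : ℝ) = - inner ℝ x (J y) := by
  have h := J.inner_map_map (J x) y
  rw [hJ, inner_neg_left] at h
  linarith

theorem inner_self_J (hJ : ∀ x, J (J x) = -x) (x : V) : (inner ℝ x (J x) : ℝ) = 0 := by
  have h := inner_J_left hJ x x
  rw [real_inner_comm] at h
  linarith

/-- the first component of the corrected pair -/
noncomputable def cx (J : V ≃ₗᵢ[ℝ] V) (t : ℝ) (x y : V) : V :=
  x - t • ((inner ℝ x y : ℝ) • y + (inner ℝ x (J y) : ℝ) • J y)

/-- the second component of the corrected pair -/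
noncomputable def cy (J : V ≃ₗᵢ[ℝ] V) (t : ℝ) (x y : V) : V :=
  y - t • ((inner ℝ x y : ℝ) • x - (inner ℝ x (J y) : ℝ) • J x)

theorem inner_cx_cy (hJ : ∀ x, J (J x) = -x) (t : ℝ) (x y : V) :
    (inner ℝ (cx J t x y) (cy J t x y) : ℝ) = inner ℝ x y *
      (1 - t * (‖x‖ ^ 2 + ‖y‖ ^ 2) + t ^ 2 * ((inner ℝ x y : ℝ) ^ 2 + (inner ℝ x (J y) : ℝ) ^ 2)) := by
  have e1 : (inner ℝ x (J x) : ℝ) = 0 := inner_self_J hJ x
  have e2 : (inner ℝ (J y) y : ℝ) = 0 := by rw [real_inner_comm]; exact inner_self_J hJ y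
  have e3 : (inner ℝ y (J x) : ℝ) = - inner ℝ x (J y) := by
    rw [real_inner_comm]; exact inner_J_left hJ x y
  have e4 : (inner ℝ (J y) (J x) : ℝ) = inner ℝ x y := by
    rw [J.inner_map_map]; exact real_inner_comm x y
  have e5 : (inner ℝ (J y) x : ℝ) = inner ℝ x (J y) := real_inner_comm _ _
  have e6 : (inner ℝ y x : ℝ) = inner ℝ x y := real_inner_comm _ _
  have e7 : (inner ℝ x x : ℝ) = ‖x‖ ^ 2 := real_inner_self_eq_norm_sq x
  have e8 : (inner ℝ y y : ℝ) = ‖y‖ ^ 2 := real_inner_self_eq_norm_sq y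
  unfold cx cy
  simp only [inner_sub_left, inner_sub_right, inner_add_left, inner_add_right, inner_smul_left,
    inner_smul_right, e1, e2, e3, e4, e5, e6, e7, e8, conj_trivial]
  ring

theorem inner_cx_Jcy (hJ : ∀ x, J (J x) = -x) (t : ℝ) (x y : V) :
    (inner ℝ (cx J t x y) (J (cy J t x y)) : ℝ) = inner ℝ x (J y) *
      (1 - t * (‖x‖ ^ 2 + ‖y‖ ^ 2) + t ^ 2 * ((inner ℝ x y : ℝ) ^ 2 + (inner ℝ x (J y) : ℝ) ^ 2)) := by
  have e1 : (inner ℝ x (J x) : ℝ) = 0 := inner_self_J hJ x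
  have e2 : (inner ℝ y (J y) : ℝ) = 0 := inner_self_J hJ y
  have e3 : (inner ℝ y (J x) : ℝ) = - inner ℝ x (J y) := by
    rw [real_inner_comm]; exact inner_J_left hJ x y
  have e4 : (inner ℝ (J y) (J x) : ℝ) = inner ℝ x y := by
    rw [J.inner_map_map]; exact real_inner_comm x y
  have e5 : (inner ℝ (J y) x : ℝ) = inner ℝ x (J y) := real_inner_comm _ _
  have e6 : (inner ℝ y x : ℝ) = inner ℝ x y := real_inner_comm _ _
  have e7 : (inner ℝ x x : ℝ) = ‖x‖ ^ 2 := real_inner_self_eq_norm_sq x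
  have e8 : (inner ℝ (J y) (J y) : ℝ) = ‖y‖ ^ 2 := by
    rw [J.inner_map_map]; exact real_inner_self_eq_norm_sq y
  unfold cx cy
  simp only [map_sub, map_smul, hJ, inner_sub_left, inner_sub_right, inner_add_left,
    inner_add_right, inner_smul_left, inner_neg_right, smul_neg, sub_neg_eq_add,
    inner_smul_right, e1, e2, e3, e4, e5, e6, e7, e8, conj_trivial]
  ring

theorem key {N s q : ℝ} (hM : 0 < N + s) (hs : s ^ 2 = N ^ 2 - 4 * q) :
    1 - (2 / (N + s)) * N + (2 / (N + s)) ^ 2 * q = 0 := by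
  have : q = (N ^ 2 - s ^ 2) / 4 := by linarith
  rw [this]
  field_simp
  ring

end alg

/-- the six properties of a smooth retraction onto the complex Stiefel base -/
theorem row_ret0 {V : Type} [NormedAddCommGroup V] [InnerProductSpace ℝ V] [FiniteDimensional ℝ V]
    {J : V ≃ₗᵢ[ℝ] V} (hJ : ∀ x, J (J x) = -x) {Q : Set (WithLp 2 (V × V))}
    (hQ : Q = {x | ‖x.fst‖ ^ 2 + ‖x.snd‖ ^ 2 = 1 ∧ inner ℝ x.fst x.snd = (0 : ℝ) ∧
    inner ℝ x.fst (J x.snd) = (0 : ℝ)}) :
    ∃ (U : Set (WithLp 2 (V × V))) (r : WithLp 2 (V × V) → WithLp 2 (V × V)),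
      IsClosed Q ∧ IsOpen U ∧ Q ⊆ U ∧ ContDiff ℝ ∞ r ∧ (∀ x ∈ U, r x ∈ Q) ∧ ∀ x ∈ Q, r x = x := by
  obtain ⟨G, hG, hG1⟩ := exists_invsqrt'
  have sL : ContDiff ℝ ∞ (WithLp.prodContinuousLinearEquiv 2 ℝ V V) :=
    (WithLp.prodContinuousLinearEquiv 2 ℝ V V).contDiff
  have s1 : ContDiff ℝ ∞ (fun z : WithLp 2 (V × V) => z.fst) := sL.fst
  have s2 : ContDiff ℝ ∞ (fun z : WithLp 2 (V × V) => z.snd) := sL.snd
  have sJ1 : ContDiff ℝ ∞ (fun z : WithLp 2 (V × V) => J z.fst) :=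
    J.toContinuousLinearEquiv.contDiff.comp s1
  have sJ2 : ContDiff ℝ ∞ (fun z : WithLp 2 (V × V) => J z.snd) :=
    J.toContinuousLinearEquiv.contDiff.comp s2
  set a : WithLp 2 (V × V) → ℝ := fun z => inner ℝ z.fst z.snd with ha
  set b : WithLp 2 (V × V) → ℝ := fun z => inner ℝ z.fst (J z.snd) with hb
  set N : WithLp 2 (V × V) → ℝ := fun z => ‖z.fst‖ ^ 2 + ‖z.snd‖ ^ 2 with hN
  have sa : ContDiff ℝ ∞ a := s1.inner ℝ s2
  have sb : ContDiff ℝ ∞ b := s1.inner ℝ sJ2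
  have sN : ContDiff ℝ ∞ N := (s1.norm_sq ℝ).add (s2.norm_sq ℝ)
  set D : WithLp 2 (V × V) → ℝ := fun z => N z ^ 2 - 4 * (a z ^ 2 + b z ^ 2) with hD
  have sD : ContDiff ℝ ∞ D :=
    (sN.pow 2).sub (contDiff_const.mul ((sa.pow 2).add (sb.pow 2)))
  set M : WithLp 2 (V × V) → ℝ := fun z => N z + D z * G (D z) with hM
  have sM : ContDiff ℝ ∞ M := sN.add (sD.mul (hG.comp sD))
  set t : WithLp 2 (V × V) → ℝ := fun z => 2 * G (M z) ^ 2 with ht
  have st : ContDiff ℝ ∞ t := contDiff_const.mul ((hG.comp sM).pow 2)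
  set X : WithLp 2 (V × V) → V := fun z => cx J (t z) z.fst z.snd with hX
  set Y : WithLp 2 (V × V) → V := fun z => cy J (t z) z.fst z.snd with hY
  have sX : ContDiff ℝ ∞ X := s1.sub (st.smul ((sa.smul s2).add (sb.smul sJ2)))
  have sY : ContDiff ℝ ∞ Y := s2.sub (st.smul ((sa.smul s1).sub (sb.smul sJ1)))
  set P : WithLp 2 (V × V) → ℝ := fun z => ‖X z‖ ^ 2 + ‖Y z‖ ^ 2 with hP
  have sP : ContDiff ℝ ∞ P := (sX.norm_sq ℝ).add (sY.norm_sq ℝ)
  have sGP : ContDiff ℝ ∞ (fun z => G (P z)) := hG.comp sP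
  have hQ' : ∀ z, z ∈ Q ↔ N z = 1 ∧ a z = 0 ∧ b z = 0 := by
    intro z
    rw [hQ]
    exact Iff.rfl
  refine ⟨{z | 1 / 4 < D z} ∩ ({z | 1 / 4 < M z} ∩ {z | 1 / 4 < P z}),
    fun z => (WithLp.prodContinuousLinearEquiv 2 ℝ V V).symm (G (P z) • X z, G (P z) • Y z),
    ?_, ?_, ?_, ?_, ?_, ?_⟩
  · have : Q = {z | N z = 1} ∩ ({z | a z = 0} ∩ {z | b z = 0}) := by
      ext z
      rw [hQ']
      exact Iff.rfl
    rw [this]
    exact (isClosed_eq sN.continuous continuous_const).inter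
      ((isClosed_eq sa.continuous continuous_const).inter
        (isClosed_eq sb.continuous continuous_const))
  · exact (isOpen_lt continuous_const sD.continuous).inter
      ((isOpen_lt continuous_const sM.continuous).inter
        (isOpen_lt continuous_const sP.continuous))
  · intro z hz
    obtain ⟨h1, h2, h3⟩ := (hQ' z).1 hz
    have hD1 : D z = 1 := by simp only [hD, h1, h2, h3]; norm_num
    have hM1 : M z = 2 := by
      simp only [hM, h1, hD1]
      rw [hG1 1 (by norm_num)]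
      norm_num
    have hX1 : X z = z.fst := by
      simp only [hX, cx]
      rw [show (inner ℝ z.fst z.snd : ℝ) = 0 from h2,
        show (inner ℝ z.fst (J z.snd) : ℝ) = 0 from h3]
      simp
    have hY1 : Y z = z.snd := by
      simp only [hY, cy]
      rw [show (inner ℝ z.fst z.snd : ℝ) = 0 from h2,
        show (inner ℝ z.fst (J z.snd) : ℝ) = 0 from h3]
      simp
    have hP1 : P z = 1 := by
      simp only [hP, hX1, hY1]
      exact h1
    refine ⟨?_, ?_, ?_⟩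
    · show 1 / 4 < D z
      rw [hD1]; norm_num
    · show 1 / 4 < M z
      rw [hM1]; norm_num
    · show 1 / 4 < P z
      rw [hP1]; norm_num
  · exact (WithLp.prodContinuousLinearEquiv 2 ℝ V V).symm.contDiff.comp
      ((sGP.smul sX).prodMk (sGP.smul sY))
  · rintro z ⟨h1, h2, h3⟩
    have h1' : 1 / 4 < D z := h1
    have h2' : 1 / 4 < M z := h2
    have h3' : 1 / 4 < P z := h3
    have hs : D z * G (D z) = √(D z) := by
      rw [hG1 _ h1'.le]
      have h0 : 0 < √(D z) := Real.sqrt_pos.2 (by linarith)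
      field_simp
      rw [Real.sq_sqrt (by linarith)]
    have hMz : M z = N z + √(D z) := by
      simp only [hM]
      rw [hs]
    have hM0 : 0 < N z + √(D z) := by rw [← hMz]; linarith
    have htz : t z = 2 / (N z + √(D z)) := by
      simp only [ht]
      rw [hG1 _ h2'.le, inv_pow, Real.sq_sqrt (by linarith), hMz]
      rfl
    have hsq : √(D z) ^ 2 = N z ^ 2 - 4 * (a z ^ 2 + b z ^ 2) := by
      rw [Real.sq_sqrt (by linarith)]
    have hk := key hM0 hsq
    rw [← htz] at hk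
    have i1 : (inner ℝ (X z) (Y z) : ℝ) = 0 := by
      have := inner_cx_cy hJ (t z) z.fst z.snd
      rw [show (1 - t z * (‖z.fst‖ ^ 2 + ‖z.snd‖ ^ 2) + t z ^ 2 *
        ((inner ℝ z.fst z.snd : ℝ) ^ 2 + (inner ℝ z.fst (J z.snd) : ℝ) ^ 2)) = 0 from hk,
        mul_zero] at this
      exact this
    have i2 : (inner ℝ (X z) (J (Y z)) : ℝ) = 0 := by
      have := inner_cx_Jcy hJ (t z) z.fst z.snd
      rw [show (1 - t z * (‖z.fst‖ ^ 2 + ‖z.snd‖ ^ 2) + t z ^ 2 *
        ((inner ℝ z.fst z.snd : ℝ) ^ 2 + (inner ℝ z.fst (J z.snd) : ℝ) ^ 2)) = 0 from hk,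
        mul_zero] at this
      exact this
    rw [hQ]
    refine ⟨?_, ?_, ?_⟩
    · show ‖G (P z) • X z‖ ^ 2 + ‖G (P z) • Y z‖ ^ 2 = 1
      rw [norm_smul, norm_smul, mul_pow, mul_pow, ← mul_add, hG1 _ h3'.le, Real.norm_eq_abs, sq_abs,
        inv_pow, Real.sq_sqrt (by linarith)]
      exact inv_mul_cancel₀ (by linarith)
    · show (inner ℝ (G (P z) • X z) (G (P z) • Y z) : ℝ) = 0
      rw [inner_smul_left, inner_smul_right, i1]
      simp
    · show (inner ℝ (G (P z) • X z) (J (G (P z) • Y z)) : ℝ) = 0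
      rw [map_smul, inner_smul_left, inner_smul_right, i2]
      simp
  · intro z hz
    obtain ⟨h1, h2, h3⟩ := (hQ' z).1 hz
    have hX1 : X z = z.fst := by
      simp only [hX, cx]
      rw [show (inner ℝ z.fst z.snd : ℝ) = 0 from h2,
        show (inner ℝ z.fst (J z.snd) : ℝ) = 0 from h3]
      simp
    have hY1 : Y z = z.snd := by
      simp only [hY, cy]
      rw [show (inner ℝ z.fst z.snd : ℝ) = 0 from h2,
        show (inner ℝ z.fst (J z.snd) : ℝ) = 0 from h3]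
      simp
    have hP1 : P z = 1 := by
      simp only [hP, hX1, hY1]
      exact h1
    show (WithLp.prodContinuousLinearEquiv 2 ℝ V V).symm (G (P z) • X z, G (P z) • Y z) = z
    rw [hX1, hY1, hP1, hG1 1 (by norm_num)]
    simp only [Real.sqrt_one, inv_one, one_smul]
    rfl

end Vale.Agent.P220.R2.H291
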