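import Mathlib
import Vale.Agent.P220.R2.H57.Defs

/-!
# Row R2: the equations of the tangent vectors of the complex Stiefel base
-/

open Set Filter Topology
open scoped ContDiff

namespace Vale.Agent.P220.R2.H291

open Vale.Agent.P220.R2.H57

/-- the equations of the velocity of a smooth curve in the complex Stiefel base -/
theorem row_tan0 {V : Type} [NormedAddCommGroup V] [InnerProductSpace ℝ V]
    {J : V ≃ₗᵢ[ℝ] V} {q v : WithLp 2 (V × V)}
    (hv : v ∈ Tan ({x | ‖x.fst‖ ^ 2 + ‖x.snd‖ ^ 2 = 1 ∧ inner ℝ x.fst x.snd = (0 : ℝ) ∧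
    inner ℝ x.fst (J x.snd) = (0 : ℝ)} : Set (WithLp 2 (V × V))) q) :
    (inner ℝ q.fst v.fst + inner ℝ q.snd v.snd : ℝ) = 0 ∧
    (inner ℝ q.fst v.snd + inner ℝ v.fst q.snd : ℝ) = 0 ∧
    (inner ℝ q.fst (J v.snd) + inner ℝ v.fst (J q.snd) : ℝ) = 0 := by
  obtain ⟨c, hc, hcS, hc0, hcv⟩ := hv
  have hd : HasDerivAt c v 0 := by
    rw [← hcv]
    exact (hc.differentiable (by simp)).differentiableAt.hasDerivAt
  have hL : HasDerivAt (fun t => WithLp.prodContinuousLinearEquiv 2 ℝ V V (c t))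
      (WithLp.prodContinuousLinearEquiv 2 ℝ V V v) 0 :=
    (WithLp.prodContinuousLinearEquiv 2 ℝ V V).toContinuousLinearMap.hasFDerivAt.comp_hasDerivAt
      0 hd
  have h1 : HasDerivAt (fun t => (c t).fst) v.fst 0 := hL.fst
  have h2 : HasDerivAt (fun t => (c t).snd) v.snd 0 := hL.snd
  have h3 : HasDerivAt (fun t => J (c t).snd) (J v.snd) 0 :=
    J.toContinuousLinearEquiv.toContinuousLinearMap.hasFDerivAt.comp_hasDerivAt 0 h2
  have c1 : (fun t => (inner ℝ (c t).fst (c t).fst + inner ℝ (c t).snd (c t).snd : ℝ))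
      = fun _ => 1 := by
    funext t
    have := (hcS t).1
    rw [real_inner_self_eq_norm_sq, real_inner_self_eq_norm_sq]
    exact this
  have c2 : (fun t => (inner ℝ (c t).fst (c t).snd : ℝ)) = fun _ => 0 := by
    funext t
    exact (hcS t).2.1
  have c3 : (fun t => (inner ℝ (c t).fst (J (c t).snd) : ℝ)) = fun _ => 0 := by
    funext t
    exact (hcS t).2.2
  have e1 := (h1.inner ℝ h1).add (h2.inner ℝ h2)
  have e1' : HasDerivAt (fun t => (inner ℝ (c t).fst (c t).fst + inner ℝ (c t).snd (c t).snd : ℝ))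
      _ 0 := e1
  rw [c1] at e1'
  have u1 := e1'.unique (hasDerivAt_const (0 : ℝ) (1 : ℝ))
  have e2 := h1.inner ℝ h2
  rw [c2] at e2
  have u2 := e2.unique (hasDerivAt_const (0 : ℝ) (0 : ℝ))
  have e3 := h1.inner ℝ h3
  rw [c3] at e3
  have u3 := e3.unique (hasDerivAt_const (0 : ℝ) (0 : ℝ))
  simp only [hc0] at u1 u2 u3
  refine ⟨?_, ?_, ?_⟩
  · rw [real_inner_comm q.fst v.fst, real_inner_comm q.snd v.snd] at u1
    linarith
  · linarith
  · linarith

end Vale.Agent.P220.R2.H291
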